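import Vale.Agent.P183.R2.H668.KW.Spec

/-!
Row B of the count of lattices: the number of graphs without four-cycles.
-/

set_option autoImplicit false

namespace Vale.Agent.P183.R2.H700

open Finset Vale.Agent.P183.R2.H668.KW

/-- the graphs without four-cycles whose edges are inside `T`. -/
def fam {V : Type} (T : Finset V) : Set (SimpleGraph V) :=
  {G | C4Free G ∧ ∀ x y, G.Adj x y → x ∈ T}

/-- the graph without the edges at `v`. -/
def cut {V : Type} (G : SimpleGraph V) (v : V) : SimpleGraph V where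
  Adj x y := G.Adj x y ∧ x ≠ v ∧ y ≠ v
  symm := ⟨fun _ _ h => ⟨h.1.symm, h.2.2, h.2.1⟩⟩
  loopless := ⟨fun x h => G.loopless.irrefl x h.1⟩

theorem cut_le {V : Type} (G : SimpleGraph V) (v : V) : ∀ x y, (cut G v).Adj x y → G.Adj x y :=
  fun _ _ h => h.1

theorem cut_c4 {V : Type} {G : SimpleGraph V} (h : C4Free G) (v : V) : C4Free (cut G v) :=
  fun u w x y hu a b c d => h u w x y hu a.1 b.1 c.1 d.1

/-- the graphs in `fam T` in which `v` has least degree -/
def least {V : Type} (T : Finset V) (v : V) : Set (SimpleGraph V) :=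
  {G | G ∈ fam T ∧ ∀ x ∈ T, {y | G.Adj v y}.ncard ≤ {y | G.Adj x y}.ncard}

theorem fam_eq {V : Type} [Finite V] (T : Finset V) (hT : T.Nonempty) :
    fam T ⊆ ⋃ v ∈ T, least T v := by
  intro G hG
  obtain ⟨v, hv, hm⟩ := T.exists_min_image (fun x => {y | G.Adj x y}.ncard) hT
  simp only [Set.mem_iUnion]
  exact ⟨v, hv, hG, hm⟩

/-- the neighbours of `v` are a possible neighbourhood. -/
theorem nb_mem {V : Type} [Finite V] [DecidableEq V] {T : Finset V} {v : V} {G : SimpleGraph V}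
    (hG : G ∈ least T v) :
    (Set.toFinite {y | G.Adj v y}).toFinset ∈ nbhds (cut G v) (T.erase v) := by
  obtain ⟨⟨hc, hT⟩, hm⟩ := hG
  refine ⟨?_, ?_, ?_⟩
  · intro x hx
    have hx' : G.Adj v x := by simpa using hx
    exact mem_erase.2 ⟨fun e => G.loopless.irrefl v (by rw [e] at hx'; exact hx'), hT x v hx'.symm⟩
  · intro x hx
    rw [mem_erase] at hx
    have h1 := hm x hx.2
    have h2 : {y | G.Adj v y}.ncard = (Set.toFinite {y | G.Adj v y}).toFinset.card :=
      Set.ncard_eq_toFinset_card _ _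
    rw [← h2]
    refine h1.trans ?_
    have h3 : {y | G.Adj x y} ⊆ insert v {y | (cut G v).Adj x y} := by
      intro y hy
      by_cases hyv : y = v
      · exact Or.inl hyv
      · exact Or.inr ⟨hy, hx.1, hyv⟩
    exact (Set.ncard_le_ncard h3 (Set.toFinite _)).trans (Set.ncard_insert_le _ _)
  · intro x hx y hy hxy
    rintro ⟨w, hwx, hwy⟩
    have hx' : G.Adj v x := by simpa using hx
    have hy' : G.Adj v y := by simpa using hy
    exact hxy (hc v w x y (fun e => hwx.2.1 e.symm) hx' hwx.1 hy' hwy.1)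

theorem cut_mem {V : Type} [DecidableEq V] {T : Finset V} {v : V} {G : SimpleGraph V}
    (hG : G ∈ fam T) : cut G v ∈ fam (T.erase v) :=
  ⟨cut_c4 hG.1 v, fun x y h => mem_erase.2 ⟨h.2.1, hG.2 x y h.1⟩⟩

theorem det {V : Type} [Finite V] {v : V} {G G' : SimpleGraph V} (h1 : cut G v = cut G' v)
    (h2 : (Set.toFinite {y | G.Adj v y}).toFinset = (Set.toFinite {y | G'.Adj v y}).toFinset) :
    G = G' := by
  have h3 : ∀ y, G.Adj v y ↔ G'.Adj v y := by
    intro y
    have := Finset.ext_iff.1 h2 y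
    simpa using this
  ext x y
  by_cases hx : x = v
  · rw [hx]; exact h3 y
  by_cases hy : y = v
  · rw [hy, G.adj_comm, G'.adj_comm]; exact h3 x
  have h4 : (cut G v).Adj x y ↔ (cut G' v).Adj x y := by rw [h1]
  exact ⟨fun h => (h4.1 ⟨h, hx, hy⟩).1, fun h => (h4.2 ⟨h, hx, hy⟩).1⟩

theorem least_card {V : Type} [Finite V] [DecidableEq V] (T : Finset V) (v : V) (B : ℝ)
    (hB : ∀ G ∈ fam (T.erase v), ((nbhds G (T.erase v)).ncard : ℝ) ≤ B) :
    ((least T v).ncard : ℝ) ≤ (fam (T.erase v)).ncard * B := by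
  classical
  have hfin : (fam (T.erase v)).Finite := Set.toFinite _
  let S : Finset (Σ _ : SimpleGraph V, Finset V) := hfin.toFinset.sigma fun G =>
    (Set.toFinite (nbhds G (T.erase v))).toFinset
  have h1 : (least T v).ncard ≤ S.card := by
    have h2 : (least T v).ncard ≤ (S : Set (Σ _ : SimpleGraph V, Finset V)).ncard := by
      refine Set.ncard_le_ncard_of_injOn
        (fun G => ⟨cut G v, (Set.toFinite {y | G.Adj v y}).toFinset⟩) ?_ ?_ (Set.toFinite _)
      · intro G hG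
        simp only [S, Finset.coe_sigma, Set.mem_sigma_iff, Finset.mem_coe,
          Set.Finite.mem_toFinset]
        exact ⟨cut_mem hG.1, nb_mem hG⟩
      · intro G _ G' _ h
        have h3 := Sigma.mk.inj_iff.1 h
        exact det h3.1 (eq_of_heq h3.2)
    rwa [Set.ncard_coe_finset] at h2
  have h3 : (S.card : ℝ) = ∑ G ∈ hfin.toFinset, ((nbhds G (T.erase v)).ncard : ℝ) := by
    rw [Finset.card_sigma]
    push_cast
    exact Finset.sum_congr rfl fun G _ => by rw [Set.ncard_eq_toFinset_card]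
  calc ((least T v).ncard : ℝ) ≤ S.card := by exact_mod_cast h1
    _ = ∑ G ∈ hfin.toFinset, ((nbhds G (T.erase v)).ncard : ℝ) := h3
    _ ≤ ∑ G ∈ hfin.toFinset, B := Finset.sum_le_sum fun G hG => hB G (by simpa using hG)
    _ = (fam (T.erase v)).ncard * B := by
      rw [Finset.sum_const, nsmul_eq_mul, Set.ncard_eq_toFinset_card _ hfin]

theorem fam_card {C : ℝ} (hC : 0 < C)
    (hA : ∀ (V : Type) [Finite V] (G : SimpleGraph V), C4Free G →
      ∀ T : Finset V, (∀ x y, G.Adj x y → x ∈ T) →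
      ((nbhds G T).ncard : ℝ) ≤ Real.exp (C * (T.card : ℝ) ^ (1 / 2 : ℝ)))
    (V : Type) [Finite V] (t : ℕ) : ∀ T : Finset V, T.card = t →
    ((fam T).ncard : ℝ) ≤ Real.exp ((C + 1) * (t : ℝ) ^ (3 / 2 : ℝ)) := by
  classical
  induction t with
  | zero =>
    intro T hT
    rw [Finset.card_eq_zero] at hT
    subst hT
    have h1 : fam (∅ : Finset V) ⊆ {⊥} := by
      intro G hG
      rw [Set.mem_singleton_iff]
      ext x y
      exact ⟨fun h => absurd (hG.2 x y h) (Finset.notMem_empty _), fun h => h.elim⟩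
    have h2 := Set.ncard_le_ncard h1 (Set.toFinite _)
    rw [Set.ncard_singleton] at h2
    have h3 : ((fam (∅ : Finset V)).ncard : ℝ) ≤ 1 := by exact_mod_cast h2
    refine h3.trans (Real.one_le_exp ?_)
    positivity
  | succ t ih =>
    intro T hT
    have hne : T.Nonempty := Finset.card_pos.1 (by omega)
    have h1 : ((fam T).ncard : ℝ) ≤ ∑ v ∈ T, ((least T v).ncard : ℝ) := by
      have h2 : (fam T).ncard ≤ ∑ v ∈ T, (least T v).ncard :=
        (Set.ncard_le_ncard (fam_eq T hne) (Set.toFinite _)).trans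
          (Finset.set_ncard_biUnion_le T _)
      exact_mod_cast h2
    have h3 : ∀ v ∈ T, ((least T v).ncard : ℝ) ≤
        Real.exp ((C + 1) * (t : ℝ) ^ (3 / 2 : ℝ)) * Real.exp (C * (t : ℝ) ^ (1 / 2 : ℝ)) := by
      intro v hv
      have hc : (T.erase v).card = t := by rw [Finset.card_erase_of_mem hv, hT]; rfl
      have h4 := least_card T v (Real.exp (C * (t : ℝ) ^ (1 / 2 : ℝ))) (fun G hG => by
        have := hA V G hG.1 (T.erase v) hG.2
        rwa [hc] at this)
      exact h4.trans (mul_le_mul_of_nonneg_right (ih _ hc) (Real.exp_pos _).le)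
    have h5 : ((fam T).ncard : ℝ) ≤ (t + 1 : ℝ) * (Real.exp ((C + 1) * (t : ℝ) ^ (3 / 2 : ℝ)) *
        Real.exp (C * (t : ℝ) ^ (1 / 2 : ℝ))) := by
      refine h1.trans ((Finset.sum_le_sum h3).trans ?_)
      rw [Finset.sum_const, nsmul_eq_mul, hT]
      push_cast
      exact le_rfl
    refine h5.trans ?_
    have ht : (0 : ℝ) ≤ t := Nat.cast_nonneg t
    have hp : ∀ x : ℝ, 0 ≤ x → x ^ (3 / 2 : ℝ) = x * x ^ (1 / 2 : ℝ) := by
      intro x hx
      have := Real.rpow_add_of_nonneg hx (y := 1) (z := 1 / 2) (by norm_num) (by norm_num)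
      rw [Real.rpow_one] at this
      rw [← this]
      norm_num
    have hs : (t : ℝ) ^ (1 / 2 : ℝ) ≤ ((t : ℝ) + 1) ^ (1 / 2 : ℝ) :=
      Real.rpow_le_rpow ht (by linarith) (by norm_num)
    have h0 : 0 ≤ (t : ℝ) ^ (1 / 2 : ℝ) := by positivity
    have h1' : 0 ≤ ((t : ℝ) + 1) ^ (1 / 2 : ℝ) := by positivity
    have hsq : ((t : ℝ) + 1) ^ (1 / 2 : ℝ) * ((t : ℝ) + 1) ^ (1 / 2 : ℝ) = (t : ℝ) + 1 := by
      rw [← Real.rpow_add (by linarith)]
      norm_num
    have h6 : (t + 1 : ℝ) ≤ Real.exp ((t + 1 : ℝ) ^ (1 / 2 : ℝ)) := by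
      generalize ((t : ℝ) + 1) ^ (1 / 2 : ℝ) = s at *
      have e1 : s ≤ Real.exp (s / 2) := by
        have := Real.quadratic_le_exp_of_nonneg (x := s / 2) (by linarith)
        nlinarith [sq_nonneg (s - 2)]
      have e2 : Real.exp s = Real.exp (s / 2) * Real.exp (s / 2) := by
        rw [← Real.exp_add]; ring_nf
      rw [e2, ← hsq]
      exact mul_le_mul e1 e1 h1' (Real.exp_pos _).le
    refine (mul_le_mul_of_nonneg_right h6 (by positivity)).trans ?_
    rw [← Real.exp_add, ← Real.exp_add, Real.exp_le_exp]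
    push_cast
    rw [hp _ ht, hp _ (by linarith : (0 : ℝ) ≤ (t : ℝ) + 1)]
    generalize ((t : ℝ) + 1) ^ (1 / 2 : ℝ) = s at *
    generalize (t : ℝ) ^ (1 / 2 : ℝ) = r at *
    have e3 : (C + 1) * (t * r) ≤ (C + 1) * (t * s) :=
      mul_le_mul_of_nonneg_left (mul_le_mul_of_nonneg_left hs ht) (by linarith)
    have e4 : C * r ≤ C * s := mul_le_mul_of_nonneg_left hs hC.le
    nlinarith

theorem rowB (hA : StA) : StB := by
  classical
  obtain ⟨C, hC, hA⟩ := hA
  refine ⟨C + 1, by linarith, fun V hV => ?_⟩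
  have := Fintype.ofFinite V
  have h1 := fam_card hC hA V (Nat.card V) Finset.univ (by
    rw [Finset.card_univ, Nat.card_eq_fintype_card])
  have h2 : fam (Finset.univ : Finset V) = {G : SimpleGraph V | C4Free G} := by
    ext G
    exact ⟨fun h => h.1, fun h => ⟨h, fun x _ _ => Finset.mem_univ x⟩⟩
  rwa [h2] at h1

end Vale.Agent.P183.R2.H700
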